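/-
S0066 (row 47) — package F4 (root step + assembly of the farness theorem), core part.
Owner: helper2.  Blueprint: `notes/s0066_blueprint.md`, section 3 (F4).

`far_of` is the farness theorem of the base matrix, with the statements of the packages
F1 (`exists_sample`), F2 (`bottom`), F3 (`cascade`), F0 (`rule_lvl`) and F4a
(`four_cycle_count`) taken as hypotheses (for the given `B`).  The module imports only
`FarDefs`; the final `far` (module `Far`) instantiates the hypotheses with the owners' theorems.
-/
import Crest.Agent.Helper5.S0066.FarDefs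

set_option autoImplicit false

namespace Crest.Agent.Helper2.S0066

open Crest.Agent.Helper5.S0066 Line

variable {h : ℕ}

/-! ### Basic facts -/

theorem pos_lt (l : Line h) : l.pos < 2 ^ h := by
  cases l with
  | leaf x => exact x.isLt
  | core j k y => exact y.isLt
  | _ => exact Nat.two_pow_pos h

theorem mem_diffSet {B : Line h → Line h → Bool} {r c : Line h} :
    (r, c) ∈ diffSet B ↔ M r c ≠ B r c := by
  simp [diffSet]

/-- In the root class (level `j + 1 = h`) all core × core cells of `M` are `1`. -/
theorem M_core_core_root {j : Fin h} (hj : j.val + 1 = h) (k k' : Fin 3) (y y' : Fin (2 ^ h)) :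
    M (core j k y) (core j k' y') = true := by
  have hy : y.val / 2 ^ (j.val + 1) = 0 := by rw [hj]; exact Nat.div_eq_of_lt y.isLt
  have hy' : y'.val / 2 ^ (j.val + 1) = 0 := by rw [hj]; exact Nat.div_eq_of_lt y'.isLt
  simp [M, nest, Line.pos, Line.lvl, hy, hy']

/-- Tree row of level `≤ j` against a root core column. -/
theorem M_tree_core_root {j : Fin h} (hj : j.val + 1 = h) {p : Line h} (hp : p.isTree = true)
    (hlvl : p.lvl ≤ j.val) (k : Fin 3) (y : Fin (2 ^ h)) : M p (core j k y) = true := by
  rw [M_tree_tree hp rfl]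
  have hl : (core j k y : Line h).lvl = j.val + 1 := rfl
  have hmax : max p.lvl (core j k y : Line h).lvl = h := by
    rw [hl]; omega
  unfold nest
  rw [hmax, Nat.div_eq_of_lt (pos_lt p), Nat.div_eq_of_lt (pos_lt (core j k y))]
  rfl

/-- Root core row against a tree column of level `≤ j`. -/
theorem M_core_tree_root {j : Fin h} (hj : j.val + 1 = h) {q : Line h} (hq : q.isTree = true)
    (hlvl : q.lvl ≤ j.val) (k : Fin 3) (y : Fin (2 ^ h)) : M (core j k y) q = true := by
  rw [M_tree_tree rfl hq]
  have hl : (core j k y : Line h).lvl = j.val + 1 := rfl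
  have hmax : max (core j k y : Line h).lvl q.lvl = h := by
    rw [hl]; omega
  unfold nest
  rw [hmax, Nat.div_eq_of_lt (pos_lt q), Nat.div_eq_of_lt (pos_lt (core j k y))]
  rfl

theorem diff_of_false {B : Line h → Line h → Bool} {j : Fin h} (hj : j.val + 1 = h)
    (k k' : Fin 3) (y y' : Fin (2 ^ h)) (hb : B (core j k y) (core j k' y') = false) :
    ((core j k y : Line h), (core j k' y' : Line h)) ∈ diffSet B := by
  rw [mem_diffSet, M_core_core_root hj, hb]
  decide

theorem card_filter_add_le {α : Type*} (s : Finset α) (P Q : α → Prop) [DecidablePred P]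
    [DecidablePred Q] (hPQ : ∀ a, P a → Q a → False) :
    (s.filter P).card + (s.filter Q).card ≤ s.card := by
  have hd : Disjoint (s.filter P) (s.filter Q) := by
    rw [Finset.disjoint_filter]
    intro a _ hp hq
    exact hPQ a hp hq
  classical
  rw [← Finset.card_union_of_disjoint hd]
  apply Finset.card_le_card
  intro x hx
  rcases Finset.mem_union.mp hx with hx | hx
  · exact (Finset.mem_filter.mp hx).1
  · exact (Finset.mem_filter.mp hx).1

/-! ### Heavy lines -/

/-- The deleted cells of the row `p` against the cores of kind `k` of level `j + 1`. -/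
def rowDel (B : Line h → Line h → Bool) (j : Fin h) (k : Fin 3) (p : Line h) :
    Finset (Fin (2 ^ h)) :=
  Finset.univ.filter fun y => B p (core j k y) = false

/-- The deleted cells of the column `q` against the cores of kind `k` of level `j + 1`. -/
def colDel (B : Line h → Line h → Bool) (j : Fin h) (k : Fin 3) (q : Line h) :
    Finset (Fin (2 ^ h)) :=
  Finset.univ.filter fun y => B (core j k y) q = false

/-- A tree row of level `≤ j` is heavy if at least a quarter of its cells against the cores of
some kind of level `j + 1` are `0` in `B`. -/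
def HeavyRow (B : Line h → Line h → Bool) (j : Fin h) (p : Line h) : Prop :=
  p.isTree = true ∧ p.lvl ≤ j.val ∧ ∃ k : Fin 3, 2 ^ h ≤ 4 * (rowDel B j k p).card

/-- Heavy columns. -/
def HeavyCol (B : Line h → Line h → Bool) (j : Fin h) (q : Line h) : Prop :=
  q.isTree = true ∧ q.lvl ≤ j.val ∧ ∃ k : Fin 3, 2 ^ h ≤ 4 * (colDel B j k q).card

open Classical in
/-- Every heavy line carries `≥ 2^h / 4` changed cells, and these are disjoint. -/
theorem heavy_count (B : Line h → Line h → Bool) (j : Fin h) (hj : j.val + 1 = h) :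
    2 ^ h * ((Finset.univ.filter (HeavyRow B j)).card + (Finset.univ.filter (HeavyCol B j)).card)
      ≤ 4 * (diffSet B).card := by
  have hr : ∀ p, HeavyRow B j p → ∃ k : Fin 3, 2 ^ h ≤ 4 * (rowDel B j k p).card :=
    fun p hp => hp.2.2
  have hc : ∀ q, HeavyCol B j q → ∃ k : Fin 3, 2 ^ h ≤ 4 * (colDel B j k q).card :=
    fun q hq => hq.2.2
  choose! kr hkr using hr
  choose! kc hkc using hc
  have hsplit : ((diffSet B).filter fun c => c.1.lvl ≤ j.val).card
      + ((diffSet B).filter fun c => ¬ c.1.lvl ≤ j.val).card = (diffSet B).card :=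
    Finset.card_filter_add_card_filter_not _
  have h1 : 2 ^ h * (Finset.univ.filter (HeavyRow B j)).card
      ≤ 4 * ((diffSet B).filter fun c => c.1.lvl ≤ j.val).card := by
    calc 2 ^ h * (Finset.univ.filter (HeavyRow B j)).card
        = ∑ _p ∈ Finset.univ.filter (HeavyRow B j), 2 ^ h := by
          rw [Finset.sum_const, smul_eq_mul, mul_comm]
      _ ≤ ∑ p ∈ Finset.univ.filter (HeavyRow B j), 4 * (rowDel B j (kr p) p).card :=
          Finset.sum_le_sum fun p hp => hkr p (Finset.mem_filter.mp hp).2
      _ = 4 * ((Finset.univ.filter (HeavyRow B j)).sigma fun p => rowDel B j (kr p) p).card := by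
          rw [Finset.card_sigma, Finset.mul_sum]
      _ ≤ 4 * ((diffSet B).filter fun c => c.1.lvl ≤ j.val).card := by
          apply Nat.mul_le_mul_left
          apply Finset.card_le_card_of_injOn
            (fun x : (_ : Line h) × Fin (2 ^ h) => (x.1, (core j (kr x.1) x.2 : Line h)))
          · rintro ⟨p, y⟩ hx
            rw [Finset.mem_coe, Finset.mem_sigma] at hx
            obtain ⟨hp, hy⟩ := hx
            have hp' : HeavyRow B j p := (Finset.mem_filter.mp hp).2
            have hy' : B p (core j (kr p) y) = false := (Finset.mem_filter.mp hy).2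
            rw [Finset.mem_coe, Finset.mem_filter, mem_diffSet]
            refine ⟨?_, hp'.2.1⟩
            rw [M_tree_core_root hj hp'.1 hp'.2.1]
            show true ≠ B p (core j (kr p) y)
            rw [hy']
            decide
          · rintro ⟨p, y⟩ _ ⟨p', y'⟩ _ hxy
            simp only [Prod.mk.injEq] at hxy
            obtain ⟨hpp, h2⟩ := hxy
            subst hpp
            have hyy : y = y' := by injection h2
            rw [hyy]
  have h2 : 2 ^ h * (Finset.univ.filter (HeavyCol B j)).card
      ≤ 4 * ((diffSet B).filter fun c => ¬ c.1.lvl ≤ j.val).card := by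
    calc 2 ^ h * (Finset.univ.filter (HeavyCol B j)).card
        = ∑ _q ∈ Finset.univ.filter (HeavyCol B j), 2 ^ h := by
          rw [Finset.sum_const, smul_eq_mul, mul_comm]
      _ ≤ ∑ q ∈ Finset.univ.filter (HeavyCol B j), 4 * (colDel B j (kc q) q).card :=
          Finset.sum_le_sum fun q hq => hkc q (Finset.mem_filter.mp hq).2
      _ = 4 * ((Finset.univ.filter (HeavyCol B j)).sigma fun q => colDel B j (kc q) q).card := by
          rw [Finset.card_sigma, Finset.mul_sum]
      _ ≤ 4 * ((diffSet B).filter fun c => ¬ c.1.lvl ≤ j.val).card := by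
          apply Nat.mul_le_mul_left
          apply Finset.card_le_card_of_injOn
            (fun x : (_ : Line h) × Fin (2 ^ h) => ((core j (kc x.1) x.2 : Line h), x.1))
          · rintro ⟨q, y⟩ hx
            rw [Finset.mem_coe, Finset.mem_sigma] at hx
            obtain ⟨hq, hy⟩ := hx
            have hq' : HeavyCol B j q := (Finset.mem_filter.mp hq).2
            have hy' : B (core j (kc q) y) q = false := (Finset.mem_filter.mp hy).2
            rw [Finset.mem_coe, Finset.mem_filter, mem_diffSet]
            refine ⟨?_, ?_⟩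
            · rw [M_core_tree_root hj hq'.1 hq'.2.1]
              show true ≠ B (core j (kc q) y) q
              rw [hy']
              decide
            · show ¬ (j.val + 1 ≤ j.val)
              omega
          · rintro ⟨q, y⟩ _ ⟨q', y'⟩ _ hxy
            simp only [Prod.mk.injEq] at hxy
            obtain ⟨h2, hqq⟩ := hxy
            subst hqq
            have hyy : y = y' := by injection h2
            rw [hyy]
  rw [Nat.mul_add]
  omega

open Classical in
/-- Among the `2^h` cores of kind `k`, all but the bad ones and the ones deleted against the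
column `q` are good and kept. -/
theorem card_goodkept_row (B : Line h → Line h → Bool) (i' : Fin (2 ^ h)) (j : Fin h) (k : Fin 3)
    (q : Line h) :
    2 ^ h ≤ (Finset.univ.filter fun y : Fin (2 ^ h) =>
        GoodRow B i' (core j k y) ∧ B (core j k y) q = true).card
      + (badRows B i').card + (colDel B j k q).card := by
  have hsub : (Finset.univ : Finset (Fin (2 ^ h))) ⊆
      ((Finset.univ.filter fun y : Fin (2 ^ h) =>
        GoodRow B i' (core j k y) ∧ B (core j k y) q = true) ∪
      (Finset.univ.filter fun y : Fin (2 ^ h) => ¬ GoodRow B i' (core j k y))) ∪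
      colDel B j k q := by
    intro y _
    simp only [Finset.mem_union, Finset.mem_filter, Finset.mem_univ, true_and, colDel]
    by_cases hg : GoodRow B i' (core j k y)
    · cases hb : B (core j k y) q
      · right; rfl
      · left; left; exact ⟨hg, rfl⟩
    · left; right; exact hg
  have hcard := Finset.card_le_card hsub
  rw [Finset.card_univ, Fintype.card_fin] at hcard
  have h1 := Finset.card_union_le
    ((Finset.univ.filter fun y : Fin (2 ^ h) =>
        GoodRow B i' (core j k y) ∧ B (core j k y) q = true) ∪
      (Finset.univ.filter fun y : Fin (2 ^ h) => ¬ GoodRow B i' (core j k y)))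
    (colDel B j k q)
  have h2 := Finset.card_union_le
    (Finset.univ.filter fun y : Fin (2 ^ h) =>
        GoodRow B i' (core j k y) ∧ B (core j k y) q = true)
    (Finset.univ.filter fun y : Fin (2 ^ h) => ¬ GoodRow B i' (core j k y))
  have h3 : (Finset.univ.filter fun y : Fin (2 ^ h) => ¬ GoodRow B i' (core j k y)).card
      ≤ (badRows B i').card := by
    apply Finset.card_le_card_of_injOn (fun y => (core j k y : Line h))
    · intro y hy
      rw [Finset.mem_coe, Finset.mem_filter] at hy
      rw [Finset.mem_coe, badRows, Finset.mem_filter]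
      exact ⟨Finset.mem_univ _, rfl, hy.2⟩
    · intro a _ b _ hab
      injection hab
  omega

open Classical in
/-- Column version of `card_goodkept_row`. -/
theorem card_goodkept_col (B : Line h → Line h → Bool) (i : Fin (2 ^ h)) (j : Fin h) (k : Fin 3)
    (p : Line h) :
    2 ^ h ≤ (Finset.univ.filter fun y : Fin (2 ^ h) =>
        GoodCol B i (core j k y) ∧ B p (core j k y) = true).card
      + (badCols B i).card + (rowDel B j k p).card := by
  have hsub : (Finset.univ : Finset (Fin (2 ^ h))) ⊆
      ((Finset.univ.filter fun y : Fin (2 ^ h) =>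
        GoodCol B i (core j k y) ∧ B p (core j k y) = true) ∪
      (Finset.univ.filter fun y : Fin (2 ^ h) => ¬ GoodCol B i (core j k y))) ∪
      rowDel B j k p := by
    intro y _
    simp only [Finset.mem_union, Finset.mem_filter, Finset.mem_univ, true_and, rowDel]
    by_cases hg : GoodCol B i (core j k y)
    · cases hb : B p (core j k y)
      · right; rfl
      · left; left; exact ⟨hg, rfl⟩
    · left; right; exact hg
  have hcard := Finset.card_le_card hsub
  rw [Finset.card_univ, Fintype.card_fin] at hcard
  have h1 := Finset.card_union_le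
    ((Finset.univ.filter fun y : Fin (2 ^ h) =>
        GoodCol B i (core j k y) ∧ B p (core j k y) = true) ∪
      (Finset.univ.filter fun y : Fin (2 ^ h) => ¬ GoodCol B i (core j k y)))
    (rowDel B j k p)
  have h2 := Finset.card_union_le
    (Finset.univ.filter fun y : Fin (2 ^ h) =>
        GoodCol B i (core j k y) ∧ B p (core j k y) = true)
    (Finset.univ.filter fun y : Fin (2 ^ h) => ¬ GoodCol B i (core j k y))
  have h3 : (Finset.univ.filter fun y : Fin (2 ^ h) => ¬ GoodCol B i (core j k y)).card
      ≤ (badCols B i).card := by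
    apply Finset.card_le_card_of_injOn (fun y => (core j k y : Line h))
    · intro y hy
      rw [Finset.mem_coe, Finset.mem_filter] at hy
      rw [Finset.mem_coe, badCols, Finset.mem_filter]
      exact ⟨Finset.mem_univ _, rfl, hy.2⟩
    · intro a _ b _ hab
      injection hab
  omega

open Classical in
/-- **Root step.**  A deleted good cell `(p, q)` of the hook of a child of the root class has a
heavy row or a heavy column: otherwise `rule_lvl` and the 4-cycle count give more than
`(11/16)² 4^h` changed cells. -/
theorem heavy_of_deleted (B : Line h → Line h → Bool) (i i' : Fin (2 ^ h))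
    (hbad : 16 * ((badRows B i').card + (badCols B i).card) < 2 ^ h)
    (hE : 16 * (diffSet B).card < 4 ^ h)
    (j : Fin h) (hj : j.val + 1 = h) (s : Bool)
    (hrule : ∀ (anyT : Bool) (yu yw yu' yw' : Fin (2 ^ h)),
      GoodRow B i' (core j (kLo s) yu) → GoodRow B i' (core j (kHi s) yw) →
      GoodCol B i (core j (kLo s) yu') → GoodCol B i (core j (kHi s) yw') →
      ∀ p q : Line h, GoodRow B i' p → GoodCol B i q →
      InCls j.val s.toNat p → InCls j.val s.toNat q →
      (if anyT = true then q.lvl = j.val else p.lvl = j.val) → B p q = false →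
      B (core j (kLo s) yu) (core j (kLo s) yu') = false ∨ B (core j (kLo s) yu) q = false ∨
      B (core j (kLo s) yu) (core j (kHi s) yw') = false ∨ B p (core j (kLo s) yu') = false ∨
      B p (core j (kHi s) yw') = false ∨ B (core j (kHi s) yw) (core j (kLo s) yu') = false ∨
      B (core j (kHi s) yw) q = false ∨ B (core j (kHi s) yw) (core j (kHi s) yw') = false)
    (hfour : ∀ (U W U' W' : Finset (Line h)), Disjoint U W → Disjoint U' W' → ∀ m : ℕ,
      m ≤ U.card → m ≤ W.card → m ≤ U'.card → m ≤ W'.card → ∀ D : Finset (Line h × Line h),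
      (∀ u ∈ U, ∀ w ∈ W, ∀ u' ∈ U', ∀ w' ∈ W',
        (u, u') ∈ D ∨ (u, w') ∈ D ∨ (w, u') ∈ D ∨ (w, w') ∈ D) → m * m ≤ D.card)
    {p q : Line h} (hp : GoodRow B i' p) (hq : GoodCol B i q)
    (hpc : InCls j.val s.toNat p) (hqc : InCls j.val s.toNat q)
    (htop : p.lvl = j.val ∨ q.lvl = j.val) (hpq : B p q = false) :
    HeavyRow B j p ∨ HeavyCol B j q := by
  by_contra hne
  rw [not_or] at hne
  obtain ⟨hnr, hnc⟩ := hne
  have hrow : ∀ k, 4 * (rowDel B j k p).card < 2 ^ h := fun k =>
    not_le.mp fun hk => hnr ⟨hpc.1, hpc.2.1, k, hk⟩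
  have hcol : ∀ k, 4 * (colDel B j k q).card < 2 ^ h := fun k =>
    not_le.mp fun hk => hnc ⟨hqc.1, hqc.2.1, k, hk⟩
  have hUrc : ∀ k, 11 * 2 ^ h < 16 * (Finset.univ.filter fun y : Fin (2 ^ h) =>
      GoodRow B i' (core j k y) ∧ B (core j k y) q = true).card := by
    intro k
    have h1 := card_goodkept_row B i' j k q
    have h2 := hcol k
    omega
  have hUcc : ∀ k, 11 * 2 ^ h < 16 * (Finset.univ.filter fun y : Fin (2 ^ h) =>
      GoodCol B i (core j k y) ∧ B p (core j k y) = true).card := by
    intro k
    have h1 := card_goodkept_col B i j k p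
    have h2 := hrow k
    omega
  have hinj : ∀ k : Fin 3,
      Function.Injective (fun y : Fin (2 ^ h) => (core j k y : Line h)) := by
    intro k a b hab
    injection hab
  have hcardim : ∀ (k : Fin 3) (S : Finset (Fin (2 ^ h))),
      (S.image fun y => (core j k y : Line h)).card = S.card :=
    fun k S => Finset.card_image_of_injective S (hinj k)
  have hdisj : ∀ S T : Finset (Fin (2 ^ h)),
      Disjoint (S.image fun y => (core j (kLo s) y : Line h))
        (T.image fun y => (core j (kHi s) y : Line h)) := by
    intro S T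
    rw [Finset.disjoint_left]
    intro a ha hb
    obtain ⟨y, _, rfl⟩ := Finset.mem_image.mp ha
    obtain ⟨y', _, hyy⟩ := Finset.mem_image.mp hb
    have hk : kHi s = kLo s := by injection hyy
    cases s <;> simp [kLo, kHi] at hk
  have key := hfour
    ((Finset.univ.filter fun y : Fin (2 ^ h) =>
      GoodRow B i' (core j (kLo s) y) ∧ B (core j (kLo s) y) q = true).image
        fun y => (core j (kLo s) y : Line h))
    ((Finset.univ.filter fun y : Fin (2 ^ h) =>
      GoodRow B i' (core j (kHi s) y) ∧ B (core j (kHi s) y) q = true).image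
        fun y => (core j (kHi s) y : Line h))
    ((Finset.univ.filter fun y : Fin (2 ^ h) =>
      GoodCol B i (core j (kLo s) y) ∧ B p (core j (kLo s) y) = true).image
        fun y => (core j (kLo s) y : Line h))
    ((Finset.univ.filter fun y : Fin (2 ^ h) =>
      GoodCol B i (core j (kHi s) y) ∧ B p (core j (kHi s) y) = true).image
        fun y => (core j (kHi s) y : Line h))
    (hdisj _ _) (hdisj _ _) (11 * 2 ^ h / 16 + 1)
    (by rw [hcardim]; have := hUrc (kLo s); omega)
    (by rw [hcardim]; have := hUrc (kHi s); omega)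
    (by rw [hcardim]; have := hUcc (kLo s); omega)
    (by rw [hcardim]; have := hUcc (kHi s); omega)
    (diffSet B) (by
      intro u hu w hw u' hu' w' hw'
      obtain ⟨yu, hyu, rfl⟩ := Finset.mem_image.mp hu
      obtain ⟨yw, hyw, rfl⟩ := Finset.mem_image.mp hw
      obtain ⟨yu', hyu', rfl⟩ := Finset.mem_image.mp hu'
      obtain ⟨yw', hyw', rfl⟩ := Finset.mem_image.mp hw'
      have hyu := (Finset.mem_filter.mp hyu).2
      have hyw := (Finset.mem_filter.mp hyw).2
      have hyu' := (Finset.mem_filter.mp hyu').2
      have hyw' := (Finset.mem_filter.mp hyw').2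
      have hanyT : (if (decide (¬ p.lvl = j.val)) = true then q.lvl = j.val
          else p.lvl = j.val) := by
        by_cases hpl : p.lvl = j.val
        · simp [hpl]
        · simpa [hpl] using htop.resolve_left hpl
      have h8 := hrule (decide (¬ p.lvl = j.val)) yu yw yu' yw' hyu.1 hyw.1 hyu'.1 hyw'.1
        p q hp hq hpc hqc hanyT hpq
      rcases h8 with h1 | h1 | h1 | h1 | h1 | h1 | h1 | h1
      · exact Or.inl (diff_of_false hj _ _ _ _ h1)
      · rw [hyu.2] at h1; cases h1
      · exact Or.inr (Or.inl (diff_of_false hj _ _ _ _ h1))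
      · rw [hyu'.2] at h1; cases h1
      · rw [hyw'.2] at h1; cases h1
      · exact Or.inr (Or.inr (Or.inl (diff_of_false hj _ _ _ _ h1)))
      · rw [hyw.2] at h1; cases h1
      · exact Or.inr (Or.inr (Or.inr (diff_of_false hj _ _ _ _ h1))))
  have h4 : (4 : ℕ) ^ h = 2 ^ h * 2 ^ h := by
    rw [show (4 : ℕ) = 2 * 2 from rfl, Nat.mul_pow]
  have hm1 : 11 * 2 ^ h < 16 * (11 * 2 ^ h / 16 + 1) := by omega
  have hsq := Nat.mul_self_lt_mul_self hm1
  nlinarith [hsq, key, hE, h4]

/-! ### The farness theorem from the package statements -/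

open Classical in
/-- **F4**, with the other packages as hypotheses. -/
theorem far_of (hh : 1 ≤ h) (B : Line h → Line h → Bool)
    (hsample : 16 * (diffSet B).card < 4 ^ h → ∃ i i' : Fin (2 ^ h), MMclean B i i' ∧
      16 * ((badRows B i').card + (badCols B i).card) < 2 ^ h)
    (hbottom : 16 * (diffSet B).card < 4 ^ h → ∀ i i' : Fin (2 ^ h), MMclean B i i' →
      16 * ((badRows B i').card + (badCols B i).card) < 2 ^ h →
      13 * 2 ^ h < 16 * (X0 B i i').card)
    (hcascade : ∀ i i' : Fin (2 ^ h), MMclean B i i' → ∀ (L : ℕ), L ≤ h → ∀ (c : ℕ)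
      (Cr Cc : Finset (Line h)),
      (∀ p q : Line h, GoodRow B i' p → GoodCol B i q → InCls L c p → InCls L c q →
        (p.lvl = L ∨ q.lvl = L) → B p q = false → p ∈ Cr ∨ q ∈ Cc) →
      ((X0 B i i').filter fun x => x.val / 2 ^ L = c).card ≤
        (Cr.filter fun p => InCls L c p).card + (Cc.filter fun q => InCls L c q).card +
        ((badRows B i').filter fun p => InCls L c p).card +
        ((badCols B i).filter fun q => InCls L c q).card)
    (hrule : ∀ i i' : Fin (2 ^ h), MMclean B i i' → ∀ (anyT : Bool) (j : Fin h) (s : Bool)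
      (c : ℕ) (yu yw yu' yw' : Fin (2 ^ h)),
      yu.val / 2 ^ (j.val + 1) = c → yw.val / 2 ^ (j.val + 1) = c →
      yu'.val / 2 ^ (j.val + 1) = c → yw'.val / 2 ^ (j.val + 1) = c →
      GoodRow B i' (core j (kLo s) yu) → GoodRow B i' (core j (kHi s) yw) →
      GoodCol B i (core j (kLo s) yu') → GoodCol B i (core j (kHi s) yw') →
      ∀ p q : Line h, GoodRow B i' p → GoodCol B i q →
      InCls j.val (2 * c + s.toNat) p → InCls j.val (2 * c + s.toNat) q →
      (if anyT = true then q.lvl = j.val else p.lvl = j.val) → B p q = false →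
      B (core j (kLo s) yu) (core j (kLo s) yu') = false ∨ B (core j (kLo s) yu) q = false ∨
      B (core j (kLo s) yu) (core j (kHi s) yw') = false ∨ B p (core j (kLo s) yu') = false ∨
      B p (core j (kHi s) yw') = false ∨ B (core j (kHi s) yw) (core j (kLo s) yu') = false ∨
      B (core j (kHi s) yw) q = false ∨ B (core j (kHi s) yw) (core j (kHi s) yw') = false)
    (hfour : ∀ (U W U' W' : Finset (Line h)), Disjoint U W → Disjoint U' W' → ∀ m : ℕ,
      m ≤ U.card → m ≤ W.card → m ≤ U'.card → m ≤ W'.card → ∀ D : Finset (Line h × Line h),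
      (∀ u ∈ U, ∀ w ∈ W, ∀ u' ∈ U', ∀ w' ∈ W',
        (u, u') ∈ D ∨ (u, w') ∈ D ∨ (w, u') ∈ D ∨ (w, w') ∈ D) → m * m ≤ D.card) :
    4 ^ h ≤ 16 * (diffSet B).card := by
  by_contra hcon
  have hE : 16 * (diffSet B).card < 4 ^ h := not_le.mp hcon
  obtain ⟨i, i', hmm, hbad⟩ := hsample hE
  have hX := hbottom hE i i' hmm hbad
  have hj : (⟨h - 1, by omega⟩ : Fin h).val + 1 = h := by
    show h - 1 + 1 = h
    omega
  generalize (⟨h - 1, by omega⟩ : Fin h) = j at hj
  have hdiv0 : ∀ y : Fin (2 ^ h), y.val / 2 ^ (j.val + 1) = 0 := by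
    intro y
    rw [hj]
    exact Nat.div_eq_of_lt y.isLt
  -- the heavy lines cover the hooks of both children of the root
  have hcov : ∀ s : Bool, ∀ p q : Line h, GoodRow B i' p → GoodCol B i q →
      InCls j.val s.toNat p → InCls j.val s.toNat q → (p.lvl = j.val ∨ q.lvl = j.val) →
      B p q = false →
      p ∈ Finset.univ.filter (HeavyRow B j) ∨ q ∈ Finset.univ.filter (HeavyCol B j) := by
    intro s p q hp hq hpc hqc htop hpq
    have hhv := heavy_of_deleted B i i' hbad hE j hj s
      (fun anyT yu yw yu' yw' hu hw hu' hw' p q hp hq hpc hqc htop hpq =>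
        hrule i i' hmm anyT j s 0 yu yw yu' yw' (hdiv0 yu) (hdiv0 yw) (hdiv0 yu') (hdiv0 yw')
          hu hw hu' hw' p q hp hq (by simpa using hpc) (by simpa using hqc) htop hpq)
      hfour hp hq hpc hqc htop hpq
    rcases hhv with hhv | hhv
    · exact Or.inl (Finset.mem_filter.mpr ⟨Finset.mem_univ _, hhv⟩)
    · exact Or.inr (Finset.mem_filter.mpr ⟨Finset.mem_univ _, hhv⟩)
  have hjh : j.val ≤ h := by omega
  have hc0 := hcascade i i' hmm j.val hjh 0 _ _ (hcov false)
  have hc1 := hcascade i i' hmm j.val hjh 1 _ _ (hcov true)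
  -- every leaf is in one of the two children
  have hXsplit : (X0 B i i').card ≤ ((X0 B i i').filter fun x => x.val / 2 ^ j.val = 0).card
      + ((X0 B i i').filter fun x => x.val / 2 ^ j.val = 1).card := by
    refine le_trans (Finset.card_le_card ?_) (Finset.card_union_le _ _)
    intro x hx
    have hx2 : x.val / 2 ^ j.val < 2 := by
      apply Nat.div_lt_of_lt_mul
      have hx1 := x.isLt
      have hx2 : 2 ^ (j.val + 1) = 2 ^ h := congrArg (fun t => 2 ^ t) hj
      have hx3 : 2 ^ (j.val + 1) = 2 ^ j.val * 2 := pow_succ 2 j.val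
      omega
    rw [Finset.mem_union, Finset.mem_filter, Finset.mem_filter]
    rcases Nat.lt_succ_iff_lt_or_eq.mp hx2 with h0 | h1
    · exact Or.inl ⟨hx, Nat.lt_one_iff.mp h0⟩
    · exact Or.inr ⟨hx, h1⟩
  have hdis : ∀ a : Line h, InCls j.val 0 a → InCls j.val 1 a → False := by
    intro a h0 h1
    have := h0.2.2
    have := h1.2.2
    omega
  have e1 := card_filter_add_le (Finset.univ.filter (HeavyRow B j)) (fun p => InCls j.val 0 p)
    (fun p => InCls j.val 1 p) hdis
  have e2 := card_filter_add_le (Finset.univ.filter (HeavyCol B j)) (fun p => InCls j.val 0 p)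
    (fun p => InCls j.val 1 p) hdis
  have e3 := card_filter_add_le (badRows B i') (fun p => InCls j.val 0 p)
    (fun p => InCls j.val 1 p) hdis
  have e4 := card_filter_add_le (badCols B i) (fun p => InCls j.val 0 p)
    (fun p => InCls j.val 1 p) hdis
  have hheavy := heavy_count B j hj
  have h4 : (4 : ℕ) ^ h = 2 ^ h * 2 ^ h := by
    rw [show (4 : ℕ) = 2 * 2 from rfl, Nat.mul_pow]
  have hNpos : 0 < 2 ^ h := Nat.two_pow_pos h
  have h12 : 12 * 2 ^ h < 16 * ((Finset.univ.filter (HeavyRow B j)).card
      + (Finset.univ.filter (HeavyCol B j)).card) := by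
    omega
  nlinarith [hheavy, hE, h4, h12, hNpos, Nat.mul_lt_mul_of_pos_left h12 hNpos]

end Crest.Agent.Helper2.S0066
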