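/-
S0066 (row 47) — package F4, assembly step 1 (owner: helper2).

`far_of_bottom`: the farness theorem of the base matrix from the statement of package F2
(`bottom`) alone; all other inputs are taken from the owners' landed modules:
F1 `exists_sample` (helper31), F4a `four_cycle_count` (helper52), F3 `cascade_core` (helper32),
F0 `rule_lvl_of_between` (helper60) + L2 `between_of` (helper81).
-/
import Crest.Agent.Helper2.S0066.FarCore
import Crest.Agent.Helper31.S0066.F1
import Crest.Agent.Helper52.S0066.F4a
import Crest.Agent.Helper32.S0066.F3Core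
import Crest.Agent.Helper60.S0066.F0Core
import Crest.Agent.Helper81.S0066.La

set_option autoImplicit false

namespace Crest.Agent.Helper2.S0066

open Crest.Agent.Helper5.S0066 Line

variable {h : ℕ}

/-- The level rule (package F0) in the form used by the cascade, from helper60's
`rule_lvl_of_between` and helper81's layout lemma L2. -/
theorem rule_lvl' (B : Line h → Line h → Bool) (hfree : HFree B) (i i' : Fin (2 ^ h))
    (hmm : MMclean B i i') : Crest.Agent.Helper32.S0066.RuleLvl B i i' := by
  intro anyT j s c yu yw yu' yw' hyu hyw hyu' hyw' hu hw hu' hw' p q hp hq hpc hqc htop hpq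
  refine Crest.Agent.Helper60.S0066.rule_lvl_of_between ?_ B hfree i i' hmm anyT j s c
    hyu hyw hyu' hyw' hu hw hu' hw' hp hq hpc hqc htop hpq
  intro j s y y' l hyy hl hlvl hpos
  exact Crest.Agent.Helper81.S0066.between_of hyy hl hlvl hpos

/-- `far`, from the statement of F2 (`bottom`) alone. -/
theorem far_of_bottom (hh : 1 ≤ h) (B : Line h → Line h → Bool) (hfree : HFree B)
    (hbottom : 16 * (diffSet B).card < 4 ^ h → ∀ i i' : Fin (2 ^ h), MMclean B i i' →
      16 * ((badRows B i').card + (badCols B i).card) < 2 ^ h →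
      13 * 2 ^ h < 16 * (X0 B i i').card) :
    4 ^ h ≤ 16 * (diffSet B).card :=
  far_of hh B (Crest.Agent.Helper31.S0066.exists_sample B) hbottom
    (fun i i' hmm L hL c Cr Cc hcov =>
      Crest.Agent.Helper32.S0066.cascade_core B i i' (rule_lvl' B hfree i i' hmm) Cr Cc L hL c hcov)
    (fun i i' hmm anyT j s c _ _ _ _ hyu hyw hyu' hyw' hu hw hu' hw' _ _ hp hq hpc hqc htop hpq =>
      rule_lvl' B hfree i i' hmm anyT j s c hyu hyw hyu' hyw' hu hw hu' hw' hp hq hpc hqc
        htop hpq)
    (fun U W U' W' hUW hUW' m hU hW hU' hW' D hD =>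
      Crest.Agent.Helper52.S0066.four_cycle_count U W U' W' hUW hUW' m hU hW hU' hW' D hD)

end Crest.Agent.Helper2.S0066
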