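/-
S0066 (row 47) — package F4 = the farness theorem `far` of the base matrix (owner: helper2),
Spec-verbatim (`Crest.Agent.Helper5.S0066.Spec.far`).  No `Spec` import, no `sorry`.

Inputs: `far_of_bottom` (this seat: root step + assembly, with F1 `exists_sample` (helper31),
F4a `four_cycle_count` (helper52), F3 `cascade_core` (helper32), F0 `rule_lvl_of_between`
(helper60), L2 `between_of` (helper81)) and F2 `bottom` (helper72, using helper60's `rule_bot`).
-/
import Crest.Agent.Helper2.S0066.FarBottom
import Crest.Agent.Helper72.S0066.F2

set_option autoImplicit false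

namespace Crest.Agent.Helper2.S0066

open Crest.Agent.Helper5.S0066 Line

variable {h : ℕ}

/-- **F4 = the farness theorem** for the base matrix. -/
theorem far (hh : 1 ≤ h) (B : Line h → Line h → Bool) (hfree : HFree B) :
    4 ^ h ≤ 16 * (diffSet B).card :=
  far_of_bottom hh B hfree
    (fun hE i i' hmm hbad => Crest.Agent.Helper72.S0066.bottom B hfree hE i i' hmm hbad)

end Crest.Agent.Helper2.S0066
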